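import Mathlib

/-! P254: isotropic constants of convex bodies.  Definitions. -/

open MeasureTheory

namespace Vale.Agent.P254C

variable {ι κ : Type*} [Fintype ι] [Fintype κ]

/-- volume of `K`, a subset of `ℝ^ι` -/
noncomputable def vol (K : Set (ι → ℝ)) : ℝ := (volume K).toReal

/-- centroid `b_K` -/
noncomputable def centroid (K : Set (ι → ℝ)) (i : ι) : ℝ := (∫ x in K, x i) / vol K

/-- covariance matrix `Σ_K` -/
noncomputable def cov (K : Set (ι → ℝ)) : Matrix ι ι ℝ := fun i j =>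
  (∫ x in K, (x i - centroid K i) * (x j - centroid K j)) / vol K

/-- convex bodies: compact convex sets with nonempty interior -/
def IsBody (K : Set (ι → ℝ)) : Prop := IsCompact K ∧ Convex ℝ K ∧ (interior K).Nonempty

/-- `L_K`, the isotropic constant: `(det Σ_K / |K|²) ^ (1 / (2 n))` -/
noncomputable def isoConst [DecidableEq ι] (K : Set (ι → ℝ)) : ℝ :=
  ((cov K).det / vol K ^ 2) ^ (1 / (2 * (Fintype.card ι : ℝ)))

/-- the closed form of `L_{Δ_n}`, the isotropic constant of the `n`-dimensional simplex: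
`((n!)² / ((n+1)^(n+1) (n+2)^n)) ^ (1 / (2 n))` -/
noncomputable def simplexConst (n : ℕ) : ℝ :=
  (((n.factorial : ℝ)) ^ 2 / (((n : ℝ) + 1) ^ (n + 1) * ((n : ℝ) + 2) ^ n)) ^
    (1 / (2 * (n : ℝ)))

/-- direct product `K × K'` in `ℝ^(ι ⊕ κ)` -/
def prodBody (K : Set (ι → ℝ)) (K' : Set (κ → ℝ)) : Set (ι ⊕ κ → ℝ) :=
  {x | (fun i => x (Sum.inl i)) ∈ K ∧ (fun j => x (Sum.inr j)) ∈ K'}

end Vale.Agent.P254C
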