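import Vale.Agent.Lib.P254C.Defs

/-! P254: the isotropic constant of a product. -/

open MeasureTheory

namespace Vale.Agent.P254C

variable {ι κ : Type*} [Fintype ι] [Fintype κ]

theorem int_prod (K : Set (ι → ℝ)) (K' : Set (κ → ℝ)) (f : (ι → ℝ) → ℝ) (g : (κ → ℝ) → ℝ) :
    ∫ x in prodBody K K', f (fun i => x (Sum.inl i)) * g (fun j => x (Sum.inr j)) =
      (∫ x in K, f x) * ∫ y in K', g y := by
  have h1 := (volume_measurePreserving_sumPiEquivProdPi (fun _ : ι ⊕ κ => ℝ)).setIntegral_preimage_emb
    (MeasurableEquiv.sumPiEquivProdPi (fun _ : ι ⊕ κ => ℝ)).measurableEmbedding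
    (fun p : (ι → ℝ) × (κ → ℝ) => f p.1 * g p.2) (K ×ˢ K')
  have h2 : ∫ z in K ×ˢ K', f z.1 * g z.2 = (∫ x in K, f x) * ∫ y in K', g y :=
    setIntegral_prod_mul f g K K'
  rw [← h2, ← h1]
  rfl

theorem vol_prod (K : Set (ι → ℝ)) (K' : Set (κ → ℝ)) :
    vol (prodBody K K') = vol K * vol K' := by
  have h1 := int_prod K K' (fun _ => 1) (fun _ => 1)
  simp only [mul_one, integral_const, MeasurableSet.univ, measureReal_restrict_apply,
    Set.univ_inter, smul_eq_mul] at h1
  exact h1

theorem body_pos {K : Set (ι → ℝ)} (hK : IsBody K) : 0 < vol K := by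
  refine ENNReal.toReal_pos ?_ hK.1.measure_lt_top.ne
  exact (Measure.measure_pos_of_nonempty_interior _ hK.2.2).ne'

theorem int_one (K : Set (ι → ℝ)) : ∫ _x in K, (1 : ℝ) = vol K := by
  simp only [integral_const, MeasurableSet.univ, measureReal_restrict_apply,
    Set.univ_inter, smul_eq_mul, mul_one]
  rfl

theorem int_coord {K : Set (ι → ℝ)} (hK : IsBody K) {f : (ι → ℝ) → ℝ} (hf : Continuous f) :
    IntegrableOn f K := hf.continuousOn.integrableOn_compact hK.1

theorem int_center {K : Set (ι → ℝ)} (hK : IsBody K) (i : ι) :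
    ∫ x in K, (x i - centroid K i) = 0 := by
  have h0 := (body_pos hK).ne'
  rw [integral_sub (int_coord hK (continuous_apply i)) (int_coord hK continuous_const),
    integral_const]
  simp only [MeasurableSet.univ, measureReal_restrict_apply, Set.univ_inter, smul_eq_mul]
  have h1 : volume.real K = vol K := rfl
  rw [h1, centroid]
  field_simp
  ring

theorem centroid_inl {K : Set (ι → ℝ)} {K' : Set (κ → ℝ)} (hK : IsBody K) (hK' : IsBody K')
    (i : ι) : centroid (prodBody K K') (Sum.inl i) = centroid K i := by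
  have h0 := (body_pos hK).ne'
  have h0' := (body_pos hK').ne'
  have h1 := int_prod K K' (fun x => x i) (fun _ => 1)
  simp only [mul_one] at h1
  rw [int_one] at h1
  rw [centroid, centroid, vol_prod, h1]
  field_simp

theorem centroid_inr {K : Set (ι → ℝ)} {K' : Set (κ → ℝ)} (hK : IsBody K) (hK' : IsBody K')
    (j : κ) : centroid (prodBody K K') (Sum.inr j) = centroid K' j := by
  have h0 := (body_pos hK).ne'
  have h0' := (body_pos hK').ne'
  have h1 := int_prod K K' (fun _ => 1) (fun y => y j)
  simp only [one_mul] at h1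
  rw [int_one] at h1
  rw [centroid, centroid, vol_prod, h1]
  field_simp

theorem cov_prod {K : Set (ι → ℝ)} {K' : Set (κ → ℝ)} (hK : IsBody K) (hK' : IsBody K') :
    cov (prodBody K K') = Matrix.fromBlocks (cov K) 0 0 (cov K') := by
  have h0 := (body_pos hK).ne'
  have h0' := (body_pos hK').ne'
  ext a b
  rcases a with i | i <;> rcases b with j | j
  · rw [Matrix.fromBlocks_apply₁₁]
    simp only [cov, centroid_inl hK hK', vol_prod]
    have h1 := int_prod K K' (fun x => (x i - centroid K i) * (x j - centroid K j)) (fun _ => 1)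
    simp only [mul_one] at h1
    rw [int_one] at h1
    rw [h1]
    field_simp
  · rw [Matrix.fromBlocks_apply₁₂, Matrix.zero_apply]
    simp only [cov, centroid_inl hK hK', centroid_inr hK hK']
    have h1 := int_prod K K' (fun x => x i - centroid K i) (fun y => y j - centroid K' j)
    rw [h1, int_center hK, zero_mul, zero_div]
  · rw [Matrix.fromBlocks_apply₂₁, Matrix.zero_apply]
    simp only [cov, centroid_inl hK hK', centroid_inr hK hK']
    have h1 := int_prod K K' (fun x => x j - centroid K j) (fun y => y i - centroid K' i)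
    have h2 : ∀ x : ι ⊕ κ → ℝ, (x (Sum.inr i) - centroid K' i) * (x (Sum.inl j) - centroid K j) =
        (x (Sum.inl j) - centroid K j) * (x (Sum.inr i) - centroid K' i) := fun x => mul_comm _ _
    simp_rw [h2]
    rw [h1, int_center hK, zero_mul, zero_div]
  · rw [Matrix.fromBlocks_apply₂₂]
    simp only [cov, centroid_inr hK hK', vol_prod]
    have h1 := int_prod K K' (fun _ => 1)
      (fun y => (y i - centroid K' i) * (y j - centroid K' j))
    simp only [one_mul] at h1
    rw [int_one] at h1
    rw [h1]
    field_simp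

theorem cov_psd {K : Set (ι → ℝ)} (hK : IsBody K) : (cov K).PosSemidef := by
  refine Matrix.PosSemidef.of_dotProduct_mulVec_nonneg ?_ ?_
  · ext i j
    rw [Matrix.conjTranspose_apply, star_trivial]
    simp only [cov]
    congr 1
    refine integral_congr_ae (Filter.Eventually.of_forall fun x => ?_)
    exact mul_comm _ _
  · intro c
    have hpos := body_pos hK
    have hint : ∀ i j, IntegrableOn
        (fun x : ι → ℝ => (x i - centroid K i) * (x j - centroid K j)) K := fun i j =>
      int_coord hK (by fun_prop)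
    have h1 : star c ⬝ᵥ (cov K).mulVec c =
        (∫ x in K, (∑ i, c i * (x i - centroid K i)) ^ 2) / vol K := by
      have h2 : ∀ x : ι → ℝ, (∑ i, c i * (x i - centroid K i)) ^ 2 =
          ∑ i, ∑ j, (c i * c j) * ((x i - centroid K i) * (x j - centroid K j)) := by
        intro x
        rw [sq, Finset.sum_mul_sum]
        refine Finset.sum_congr rfl fun i _ => Finset.sum_congr rfl fun j _ => ?_
        ring
      simp_rw [h2]
      rw [integral_finsetSum]
      · simp only [dotProduct, Matrix.mulVec, star_trivial, Finset.sum_div]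
        refine Finset.sum_congr rfl fun i _ => ?_
        rw [integral_finsetSum]
        · rw [Finset.mul_sum, Finset.sum_div]
          refine Finset.sum_congr rfl fun j _ => ?_
          rw [integral_const_mul]
          simp only [cov]
          ring
        · intro j _
          exact (hint i j).const_mul _
      · intro i _
        exact integrable_finsetSum _ fun j _ => (hint i j).const_mul _
    rw [h1]
    exact div_nonneg (integral_nonneg fun x => sq_nonneg _) hpos.le

theorem body_prod {K : Set (ι → ℝ)} {K' : Set (κ → ℝ)} (hK : IsBody K) (hK' : IsBody K') :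
    IsBody (prodBody K K') := by
  let e : (ι ⊕ κ → ℝ) ≃ₜ (ι → ℝ) × (κ → ℝ) := Homeomorph.sumPiEquivProdPi ι κ (fun _ => ℝ)
  have he : prodBody K K' = e ⁻¹' (K ×ˢ K') := rfl
  refine ⟨?_, ?_, ?_⟩
  · rw [he]
    exact (e.isCompact_preimage).2 (hK.1.prod hK'.1)
  · intro x hx y hy a b ha hb hab
    exact ⟨hK.2.1 hx.1 hy.1 ha hb hab, hK'.2.1 hx.2 hy.2 ha hb hab⟩
  · rw [he, ← e.preimage_interior, interior_prod_eq]
    obtain ⟨p, hp⟩ := hK.2.2
    obtain ⟨p', hp'⟩ := hK'.2.2
    refine ⟨e.symm (p, p'), ?_⟩
    rw [Set.mem_preimage, e.apply_symm_apply]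
    exact ⟨hp, hp'⟩

theorem det_prod [DecidableEq ι] [DecidableEq κ] {K : Set (ι → ℝ)} {K' : Set (κ → ℝ)}
    (hK : IsBody K) (hK' : IsBody K') :
    (cov (prodBody K K')).det / vol (prodBody K K') ^ 2 =
      ((cov K).det / vol K ^ 2) * ((cov K').det / vol K' ^ 2) := by
  rw [cov_prod hK hK', Matrix.det_fromBlocks_zero₂₁, vol_prod, div_mul_div_comm, mul_pow]

end Vale.Agent.P254C
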