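import Vale.Agent.Lib.P254C.Num
import Vale.Agent.Lib.P254C.ProdB

/-! P254: products. -/

open MeasureTheory

namespace Vale.Agent.P254C

variable {ι κ : Type*} [Fintype ι] [Fintype κ] [DecidableEq ι] [DecidableEq κ]

theorem isoQ_nonneg {K : Set (ι → ℝ)} (hK : IsBody K) : 0 ≤ (cov K).det / vol K ^ 2 :=
  div_nonneg (cov_psd hK).det_nonneg (by positivity)

theorem isoConst_pow [Nonempty ι] {K : Set (ι → ℝ)} (hK : IsBody K) :
    isoConst K ^ (2 * Fintype.card ι) = (cov K).det / vol K ^ 2 := by
  have hn : (0 : ℝ) < 2 * (Fintype.card ι : ℝ) := by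
    have : 0 < Fintype.card ι := Fintype.card_pos
    positivity
  rw [isoConst, ← Real.rpow_natCast, ← Real.rpow_mul (isoQ_nonneg hK)]
  push_cast
  rw [one_div_mul_cancel hn.ne', Real.rpow_one]

theorem simplexConst_pow {n : ℕ} (hn : 1 ≤ n) : simplexConst n ^ (2 * n) = simplexQ n := by
  have hn' : (0 : ℝ) < 2 * (n : ℝ) := by
    have : (1 : ℝ) ≤ n := by exact_mod_cast hn
    positivity
  have h0 := (simplexQ_pos n).le
  rw [simplexConst, ← simplexQ, ← Real.rpow_natCast, ← Real.rpow_mul h0]
  push_cast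
  rw [one_div_mul_cancel hn'.ne', Real.rpow_one]

theorem isoConst_nonneg {K : Set (ι → ℝ)} (hK : IsBody K) : 0 ≤ isoConst K :=
  Real.rpow_nonneg (isoQ_nonneg hK) _

theorem simplexConst_pos (n : ℕ) : 0 < simplexConst n := by
  rw [simplexConst, ← simplexQ]
  exact Real.rpow_pos_of_pos (simplexQ_pos n) _

theorem isoConst_prod_pow [Nonempty ι] [Nonempty κ] {K : Set (ι → ℝ)} {K' : Set (κ → ℝ)}
    (hK : IsBody K) (hK' : IsBody K') :
    isoConst (prodBody K K') ^ (2 * (Fintype.card ι + Fintype.card κ)) =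
      isoConst K ^ (2 * Fintype.card ι) * isoConst K' ^ (2 * Fintype.card κ) := by
  rw [← Fintype.card_sum, isoConst_pow (body_prod hK hK'), isoConst_pow hK, isoConst_pow hK',
    det_prod hK hK']

theorem isoConst_prod_lt [Nonempty ι] [Nonempty κ] {K : Set (ι → ℝ)} {K' : Set (κ → ℝ)}
    (hK : IsBody K) (hK' : IsBody K') (h : isoConst K ≤ simplexConst (Fintype.card ι))
    (h' : isoConst K' ≤ simplexConst (Fintype.card κ)) :
    isoConst (prodBody K K') < simplexConst (Fintype.card ι + Fintype.card κ) := by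
  have ha : 1 ≤ Fintype.card ι := Fintype.card_pos
  have hb : 1 ≤ Fintype.card κ := Fintype.card_pos
  refine lt_of_pow_lt_pow_left₀ (2 * (Fintype.card ι + Fintype.card κ))
    (simplexConst_pos _).le ?_
  rw [isoConst_prod_pow hK hK', simplexConst_pow (by omega)]
  calc isoConst K ^ (2 * Fintype.card ι) * isoConst K' ^ (2 * Fintype.card κ)
      ≤ simplexConst (Fintype.card ι) ^ (2 * Fintype.card ι) *
        simplexConst (Fintype.card κ) ^ (2 * Fintype.card κ) := by
        refine mul_le_mul (pow_le_pow_left₀ (isoConst_nonneg hK) h _)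
          (pow_le_pow_left₀ (isoConst_nonneg hK') h' _)
          (pow_nonneg (isoConst_nonneg hK') _) (pow_nonneg (simplexConst_pos _).le _)
    _ = simplexQ (Fintype.card ι) * simplexQ (Fintype.card κ) := by
        rw [simplexConst_pow ha, simplexConst_pow hb]
    _ < simplexQ (Fintype.card ι + Fintype.card κ) := simplexQ_mul_lt _ _ ha hb

end Vale.Agent.P254C
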