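import Mathlib

/-! P254: the isotropic constants of simplices, `S n = L_{Δ_n} ^ (2 n)`, satisfy
`S a * S b < S (a + b)`. -/

namespace Vale.Agent.P254C

/-- `L_{Δ_n} ^ (2 n)` for the `n`-dimensional simplex -/
noncomputable def simplexQ (n : ℕ) : ℝ :=
  ((n.factorial : ℝ)) ^ 2 / (((n : ℝ) + 1) ^ (n + 1) * ((n : ℝ) + 2) ^ n)

/-- quotient of consecutive values -/
noncomputable def rho (n : ℕ) : ℝ :=
  ((n : ℝ) + 1) ^ (n + 3) / (((n : ℝ) + 2) ^ 2 * ((n : ℝ) + 3) ^ (n + 1))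

theorem simplexQ_pos (n : ℕ) : 0 < simplexQ n := by
  unfold simplexQ
  have : (0 : ℝ) < n.factorial := by exact_mod_cast n.factorial_pos
  positivity

theorem rho_pos (n : ℕ) : 0 < rho n := by
  unfold rho
  positivity

theorem simplexQ_zero : simplexQ 0 = 1 := by
  unfold simplexQ
  norm_num

theorem simplexQ_succ (n : ℕ) : simplexQ (n + 1) = rho n * simplexQ n := by
  unfold simplexQ rho
  rw [Nat.factorial_succ]
  push_cast
  have h1 : ((n : ℝ) + 1) ≠ 0 := by positivity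
  have h2 : ((n : ℝ) + 2) ≠ 0 := by positivity
  have h3 : ((n : ℝ) + 3) ≠ 0 := by positivity
  rw [show (n : ℝ) + 1 + 1 = n + 2 by ring, show (n : ℝ) + 1 + 2 = n + 3 by ring]
  rw [div_mul_div_comm, div_eq_div_iff (by positivity) (by positivity)]
  ring

theorem bern2 (n : ℕ) (x : ℝ) (hx : 0 ≤ x) :
    1 + n * x + n * (n - 1) / 2 * x ^ 2 ≤ (1 + x) ^ n := by
  induction n with
  | zero => simp
  | succ n ih =>
    rw [pow_succ]
    have h1 : (1 + n * x + n * (n - 1) / 2 * x ^ 2) * (1 + x) ≤ (1 + x) ^ n * (1 + x) :=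
      mul_le_mul_of_nonneg_right ih (by linarith)
    refine le_trans ?_ h1
    push_cast
    have h2 : 0 ≤ (n : ℝ) * (n - 1) := by
      rcases Nat.eq_zero_or_pos n with h | h
      · rw [h]; simp
      · have : (1 : ℝ) ≤ n := by exact_mod_cast h
        have : (0 : ℝ) ≤ (n : ℝ) - 1 := by linarith
        positivity
    have h3 : 0 ≤ x ^ 3 := by positivity
    nlinarith [mul_nonneg h2 h3]

theorem rho_lt (n : ℕ) : rho n < rho (n + 1) := by
  set m : ℝ := (n : ℝ) + 1 with hm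
  have hm1 : (1 : ℝ) ≤ m := by
    rw [hm]
    have : (0 : ℝ) ≤ n := Nat.cast_nonneg n
    linarith
  have hm0 : (0 : ℝ) < m := by linarith
  unfold rho
  push_cast
  rw [show (n : ℝ) + 1 + 1 = m + 1 by rw [hm], show (n : ℝ) + 1 + 2 = m + 2 by rw [hm],
    show (n : ℝ) + 1 + 3 = m + 3 by rw [hm], show (n : ℝ) + 2 = m + 1 by rw [hm]; ring,
    show (n : ℝ) + 3 = m + 2 by rw [hm]; ring, ← hm]
  rw [div_lt_div_iff₀ (by positivity) (by positivity)]
  have hb := bern2 (n + 1) (2 / (m * (m + 3))) (by positivity)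
  have e1 : (1 : ℝ) + 2 / (m * (m + 3)) = (m + 1) * (m + 2) / (m * (m + 3)) := by
    field_simp
    ring
  have e2 : (1 : ℝ) + ((n + 1 : ℕ) : ℝ) * (2 / (m * (m + 3))) +
      ((n + 1 : ℕ) : ℝ) * (((n + 1 : ℕ) : ℝ) - 1) / 2 * (2 / (m * (m + 3))) ^ 2 =
      (m ^ 3 + 8 * m ^ 2 + 17 * m - 2) / (m * (m + 3) ^ 2) := by
    push_cast
    rw [← hm]
    field_simp
    ring
  rw [e1, e2, div_pow, div_le_div_iff₀ (by positivity) (by positivity)] at hb
  -- polynomial inequality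
  have hpoly : m ^ 3 * ((m + 2) ^ 2 * (m + 3) ^ 3) <
      (m ^ 3 + 8 * m ^ 2 + 17 * m - 2) * (m + 1) ^ 5 := by
    have h5 : (m ^ 3 + 8 * m ^ 2 + 17 * m - 2) * (m + 1) ^ 5 -
        m ^ 3 * ((m + 2) ^ 2 * (m + 3) ^ 3) =
        2 * m ^ 5 + 29 * m ^ 4 + 83 * m ^ 3 + 73 * m ^ 2 + 7 * m - 2 := by ring
    have h6 : 0 < 2 * m ^ 5 + 29 * m ^ 4 + 83 * m ^ 3 + 73 * m ^ 2 + 7 * m - 2 := by
      have : 0 < 2 * m ^ 5 + 29 * m ^ 4 + 83 * m ^ 3 + 73 * m ^ 2 := by positivity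
      linarith
    linarith
  set P : ℝ := m ^ 3 + 8 * m ^ 2 + 17 * m - 2 with hP
  have hPpos : 0 < P := by
    rw [hP]
    have : 0 < m ^ 3 + 8 * m ^ 2 := by positivity
    linarith
  -- combine: hb : P * (m (m+3))^(n+1) ≤ ((m+1)(m+2))^(n+1) * (m (m+3)^2)
  have hb' : P * (m ^ (n + 1) * (m + 3) ^ (n + 1)) ≤
      ((m + 1) ^ (n + 1) * (m + 2) ^ (n + 1)) * (m * (m + 3) ^ 2) := by
    have := hb
    rw [mul_pow, mul_pow] at this
    exact this
  have key : m ^ (n + 3) * ((m + 2) ^ 2 * (m + 3) ^ (n + 2)) * (P * (m * (m + 3) ^ 2)) <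
      (m + 1) ^ (n + 4) * ((m + 1) ^ 2 * (m + 2) ^ (n + 1)) * (P * (m * (m + 3) ^ 2)) := by
    have h7 : m ^ (n + 3) * ((m + 2) ^ 2 * (m + 3) ^ (n + 2)) * (P * (m * (m + 3) ^ 2)) =
        (P * (m ^ (n + 1) * (m + 3) ^ (n + 1))) * (m ^ 3 * ((m + 2) ^ 2 * (m + 3) ^ 3)) := by
      ring
    have h8 : (m + 1) ^ (n + 4) * ((m + 1) ^ 2 * (m + 2) ^ (n + 1)) * (P * (m * (m + 3) ^ 2)) =
        (((m + 1) ^ (n + 1) * (m + 2) ^ (n + 1)) * (m * (m + 3) ^ 2)) * (P * (m + 1) ^ 5) := by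
      ring
    rw [h7, h8]
    refine mul_lt_mul_of_le_of_lt_of_nonneg_of_pos hb' hpoly (by positivity) (by positivity)
  exact lt_of_mul_lt_mul_right key (by positivity)

theorem rho_mono : StrictMono rho := strictMono_nat_of_lt_succ rho_lt

theorem simplexQ_mul_lt (a b : ℕ) (ha : 1 ≤ a) (hb : 1 ≤ b) :
    simplexQ a * simplexQ b < simplexQ (a + b) := by
  have hle : ∀ k, simplexQ a * simplexQ (k + 1) < simplexQ (a + (k + 1)) := by
    intro k
    induction k with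
    | zero =>
      rw [simplexQ_succ, simplexQ_zero, mul_one, ← add_assoc, add_zero, simplexQ_succ, mul_comm]
      exact mul_lt_mul_of_pos_right (rho_mono (by omega)) (simplexQ_pos a)
    | succ k ih =>
      rw [simplexQ_succ (k + 1), ← add_assoc a (k + 1) 1, simplexQ_succ (a + (k + 1))]
      have h1 : rho (k + 1) < rho (a + (k + 1)) := rho_mono (by omega)
      calc simplexQ a * (rho (k + 1) * simplexQ (k + 1))
          = rho (k + 1) * (simplexQ a * simplexQ (k + 1)) := by ring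
        _ < rho (a + (k + 1)) * simplexQ (a + (k + 1)) :=
          mul_lt_mul'' h1 ih (rho_pos _).le (mul_pos (simplexQ_pos _) (simplexQ_pos _)).le
  obtain ⟨k, rfl⟩ : ∃ k, b = k + 1 := ⟨b - 1, by omega⟩
  exact hle k

end Vale.Agent.P254C
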