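import Vale.Agent.Lib.P254C.Main

/-! P254: pyramids. -/

open MeasureTheory Pointwise

namespace Vale.Agent.P254C

variable {ι : Type*} [Fintype ι]

/-- the pyramid with base `K × {1}` and apex `0` -/
def pyramid (K : Set (ι → ℝ)) : Set (ι ⊕ Unit → ℝ) :=
  {x | 0 ≤ x (Sum.inr ()) ∧ x (Sum.inr ()) ≤ 1 ∧
    ∃ y ∈ K, ∀ i, x (Sum.inl i) = x (Sum.inr ()) * y i}

/-- the same set in `ℝ^ι × ℝ` -/
def pyrT (K : Set (ι → ℝ)) : Set ((ι → ℝ) × ℝ) :=
  (fun p : (ι → ℝ) × ℝ => (p.2 • p.1, p.2)) '' (K ×ˢ Set.Icc (0 : ℝ) 1)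

theorem pyrT_compact {K : Set (ι → ℝ)} (hK : IsCompact K) : IsCompact (pyrT K) :=
  (hK.prod isCompact_Icc).image (by fun_prop)

/-- coordinates -/
noncomputable def phi : (ι ⊕ Unit → ℝ) ≃ᵐ (ι → ℝ) × ℝ :=
  (MeasurableEquiv.sumPiEquivProdPi (fun _ : ι ⊕ Unit => ℝ)).trans
    ((MeasurableEquiv.refl (ι → ℝ)).prodCongr (MeasurableEquiv.funUnique Unit ℝ))

theorem phi_apply (x : ι ⊕ Unit → ℝ) : phi x = (fun i => x (Sum.inl i), x (Sum.inr ())) := rfl

theorem phi_mp : MeasurePreserving (phi (ι := ι)) volume volume := by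
  have h1 := volume_measurePreserving_sumPiEquivProdPi (fun _ : ι ⊕ Unit => ℝ)
  have h2 : MeasurePreserving
      ((MeasurableEquiv.refl (ι → ℝ)).prodCongr (MeasurableEquiv.funUnique Unit ℝ))
      (volume : Measure ((ι → ℝ) × (Unit → ℝ))) (volume : Measure ((ι → ℝ) × ℝ)) :=
    (MeasurePreserving.id volume).prod (volume_preserving_funUnique Unit ℝ)
  exact h2.comp h1

theorem pyramid_eq (K : Set (ι → ℝ)) : pyramid K = phi ⁻¹' pyrT K := by
  ext x
  simp only [pyramid, Set.mem_preimage, phi_apply, pyrT, Set.mem_image, Set.mem_prod,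
    Set.mem_Icc, Set.mem_ofPred_eq, Prod.mk.injEq, Prod.exists]
  constructor
  · rintro ⟨h0, h1, y, hy, hxy⟩
    refine ⟨y, x (Sum.inr ()), ⟨hy, h0, h1⟩, ?_, rfl⟩
    funext i
    rw [Pi.smul_apply, smul_eq_mul, hxy i]
  · rintro ⟨y, u, ⟨hy, h0, h1⟩, hxy, rfl⟩
    refine ⟨h0, h1, y, hy, fun i => ?_⟩
    have := congrFun hxy i
    rw [Pi.smul_apply, smul_eq_mul] at this
    exact this.symm

theorem int_T {K : Set (ι → ℝ)} (hK : IsCompact K) (k j : ℕ) (f : (ι → ℝ) → ℝ)
    (hf : Continuous f) (hk : ∀ (c : ℝ) (y : ι → ℝ), f (c • y) = c ^ k * f y) :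
    ∫ p in pyrT K, f p.1 * p.2 ^ j = (∫ y in K, f y) / (Fintype.card ι + k + j + 1) := by
  have hTc := pyrT_compact hK
  have hTm : MeasurableSet (pyrT K) := hTc.isClosed.measurableSet
  have hint : IntegrableOn (fun p : (ι → ℝ) × ℝ => f p.1 * p.2 ^ j) (pyrT K) :=
    ContinuousOn.integrableOn_compact hTc (by fun_prop)
  rw [← integral_indicator hTm]
  have hint2 : Integrable ((pyrT K).indicator fun p : (ι → ℝ) × ℝ => f p.1 * p.2 ^ j)
      ((volume : Measure (ι → ℝ)).prod (volume : Measure ℝ)) := by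
    rw [integrable_indicator_iff hTm]
    exact hint
  have h1 : ∫ p, (pyrT K).indicator (fun p : (ι → ℝ) × ℝ => f p.1 * p.2 ^ j) p =
      ∫ u : ℝ, ∫ y : ι → ℝ, (pyrT K).indicator (fun p => f p.1 * p.2 ^ j) (y, u) :=
    integral_prod_symm _ hint2
  rw [h1]
  have h2 : ∀ᵐ u : ℝ, ∫ y : ι → ℝ, (pyrT K).indicator (fun p => f p.1 * p.2 ^ j) (y, u) =
      (Set.Icc (0 : ℝ) 1).indicator
        (fun u => (∫ y in K, f y) * u ^ (Fintype.card ι + k + j)) u := by
    have hne : ∀ᵐ u : ℝ, u ≠ 0 := by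
      rw [ae_iff]
      simp
    filter_upwards [hne] with u hu
    by_cases hI : u ∈ Set.Icc (0 : ℝ) 1
    · rw [Set.indicator_of_mem hI]
      have hu0 : 0 < u := lt_of_le_of_ne hI.1 (Ne.symm hu)
      have h3 : ∀ y : ι → ℝ, (pyrT K).indicator (fun p => f p.1 * p.2 ^ j) (y, u) =
          (u • K).indicator (fun y => f y * u ^ j) y := by
        intro y
        by_cases hy : y ∈ u • K
        · rw [Set.indicator_of_mem hy, Set.indicator_of_mem]
          obtain ⟨z, hz, rfl⟩ := hy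
          exact ⟨(z, u), ⟨hz, hI⟩, rfl⟩
        · rw [Set.indicator_of_notMem hy, Set.indicator_of_notMem]
          rintro ⟨⟨z, u'⟩, ⟨hz, -⟩, h4⟩
          apply hy
          have h5 : u' = u := congrArg Prod.snd h4
          have h6 : u' • z = y := congrArg Prod.fst h4
          rw [← h6, h5]
          exact Set.smul_mem_smul_set hz
      simp_rw [h3]
      have hKu : MeasurableSet (u • K) := (hK.smul u).isClosed.measurableSet
      rw [integral_indicator hKu, integral_mul_const]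
      have h7 := Measure.setIntegral_comp_smul_of_pos (volume : Measure (ι → ℝ)) f K hu0
      rw [Module.finrank_fintype_fun_eq_card] at h7
      simp_rw [hk] at h7
      rw [integral_const_mul, smul_eq_mul] at h7
      have h8 : (u ^ Fintype.card ι) ≠ 0 := by positivity
      have h9 : ∫ x in u • K, f x = u ^ Fintype.card ι * (u ^ k * ∫ y in K, f y) := by
        rw [h7, ← mul_assoc, mul_inv_cancel₀ h8, one_mul]
      rw [h9]
      ring
    · rw [Set.indicator_of_notMem hI]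
      have h3 : ∀ y : ι → ℝ, (pyrT K).indicator (fun p => f p.1 * p.2 ^ j) (y, u) = 0 := by
        intro y
        refine Set.indicator_of_notMem ?_ _
        rintro ⟨⟨z, u'⟩, ⟨-, hu'⟩, h4⟩
        apply hI
        have h5 : u' = u := congrArg Prod.snd h4
        rw [← h5]
        exact hu'
      simp_rw [h3]
      simp
  rw [integral_congr_ae h2, integral_indicator measurableSet_Icc, integral_const_mul,
    integral_Icc_eq_integral_Ioc, ← intervalIntegral.integral_of_le zero_le_one, integral_pow]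
  push_cast
  simp
  ring

theorem int_pyr {K : Set (ι → ℝ)} (hK : IsCompact K) (k j : ℕ) (f : (ι → ℝ) → ℝ)
    (hf : Continuous f) (hk : ∀ (c : ℝ) (y : ι → ℝ), f (c • y) = c ^ k * f y) :
    ∫ x in pyramid K, f (fun i => x (Sum.inl i)) * x (Sum.inr ()) ^ j =
      (∫ y in K, f y) / (Fintype.card ι + k + j + 1) := by
  have h1 := phi_mp.setIntegral_preimage_emb (phi (ι := ι)).measurableEmbedding
    (fun p : (ι → ℝ) × ℝ => f p.1 * p.2 ^ j) (pyrT K)
  rw [← int_T hK k j f hf hk, ← h1, pyramid_eq]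
  rfl

end Vale.Agent.P254C
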