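import Vale.Agent.Lib.P254C.Pyr

/-! P254: the isotropic constant of a pyramid. -/

open MeasureTheory Pointwise

namespace Vale.Agent.P254C

variable {ι : Type*} [Fintype ι]

theorem vol_pyr {K : Set (ι → ℝ)} (hK : IsCompact K) :
    vol (pyramid K) = vol K / (Fintype.card ι + 1) := by
  have h1 := int_pyr hK 0 0 (fun _ => 1) continuous_const (fun c y => by simp)
  simp only [pow_zero, mul_one] at h1
  rw [int_one, int_one] at h1
  rw [h1]
  push_cast
  ring

theorem mom_u {K : Set (ι → ℝ)} (hK : IsCompact K) :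
    ∫ x in pyramid K, x (Sum.inr ()) = vol K / (Fintype.card ι + 2) := by
  have h1 := int_pyr hK 0 1 (fun _ => 1) continuous_const (fun c y => by simp)
  simp only [pow_one, one_mul] at h1
  rw [int_one] at h1
  rw [h1]
  push_cast
  ring

theorem mom_uu {K : Set (ι → ℝ)} (hK : IsCompact K) :
    ∫ x in pyramid K, x (Sum.inr ()) ^ 2 = vol K / (Fintype.card ι + 3) := by
  have h1 := int_pyr hK 0 2 (fun _ => 1) continuous_const (fun c y => by simp)
  simp only [one_mul] at h1
  rw [int_one] at h1
  rw [h1]
  push_cast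
  ring

theorem mom_x {K : Set (ι → ℝ)} (hK : IsCompact K) (i : ι) :
    ∫ x in pyramid K, x (Sum.inl i) = (∫ y in K, y i) / (Fintype.card ι + 2) := by
  have h1 := int_pyr hK 1 0 (fun y => y i) (continuous_apply i) (fun c y => by simp)
  simp only [pow_zero, mul_one] at h1
  rw [h1]
  push_cast
  ring

theorem mom_xu {K : Set (ι → ℝ)} (hK : IsCompact K) (i : ι) :
    ∫ x in pyramid K, x (Sum.inl i) * x (Sum.inr ()) =
      (∫ y in K, y i) / (Fintype.card ι + 3) := by
  have h1 := int_pyr hK 1 1 (fun y => y i) (continuous_apply i) (fun c y => by simp)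
  simp only [pow_one] at h1
  rw [h1]
  push_cast
  ring

theorem mom_xx {K : Set (ι → ℝ)} (hK : IsCompact K) (i j : ι) :
    ∫ x in pyramid K, x (Sum.inl i) * x (Sum.inl j) =
      (∫ y in K, y i * y j) / (Fintype.card ι + 3) := by
  have h1 := int_pyr hK 2 0 (fun y => y i * y j) (by fun_prop) (fun c y => by
    simp only [Pi.smul_apply, smul_eq_mul]; ring)
  simp only [pow_zero, mul_one] at h1
  rw [h1]
  push_cast
  ring

/-- covariance from second moments -/
theorem cov_eq {K : Set (ι → ℝ)} (hK : IsBody K) (i j : ι) :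
    cov K i j = (∫ x in K, x i * x j) / vol K - centroid K i * centroid K j := by
  have h0 := (body_pos hK).ne'
  have hxi := int_coord hK (continuous_apply i)
  have hxj := int_coord hK (continuous_apply j)
  have hxx : IntegrableOn (fun x : ι → ℝ => x i * x j) K := int_coord hK (by fun_prop)
  have hc : IntegrableOn (fun _ : ι → ℝ => centroid K i * centroid K j) K :=
    int_coord hK continuous_const
  have h1 : ∀ x : ι → ℝ, (x i - centroid K i) * (x j - centroid K j) =
      x i * x j - centroid K j * x i - centroid K i * x j + centroid K i * centroid K j := by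
    intro x; ring
  have h2 : ∫ x in K, (x i - centroid K i) * (x j - centroid K j) =
      (∫ x in K, x i * x j) - centroid K j * (∫ x in K, x i) - centroid K i * (∫ x in K, x j) +
        centroid K i * centroid K j * vol K := by
    simp_rw [h1]
    rw [integral_add, integral_sub, integral_sub, integral_const_mul, integral_const_mul,
      integral_const]
    · simp only [MeasurableSet.univ, measureReal_restrict_apply, Set.univ_inter, smul_eq_mul]
      have h3 : volume.real K = vol K := rfl
      rw [h3]
      ring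
    · exact hxx
    · exact hxi.const_mul _
    · exact hxx.sub (hxi.const_mul _)
    · exact hxj.const_mul _
    · exact (hxx.sub (hxi.const_mul _)).sub (hxj.const_mul _)
    · exact hc
  have hi : ∫ x in K, x i = centroid K i * vol K := by
    rw [centroid]; field_simp
  have hj : ∫ x in K, x j = centroid K j * vol K := by
    rw [centroid]; field_simp
  simp only [cov]
  rw [h2, hi, hj]
  field_simp
  ring

theorem body_pyr {K : Set (ι → ℝ)} (hK : IsBody K) : IsBody (pyramid K) := by
  have hcomp : IsCompact (pyramid K) := by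
    let F : (ι → ℝ) × ℝ → (ι ⊕ Unit → ℝ) := fun p => Sum.elim (fun i => p.2 * p.1 i) (fun _ => p.2)
    have hF : Continuous F := by
      refine continuous_pi fun a => ?_
      rcases a with i | _
      · show Continuous fun p : (ι → ℝ) × ℝ => p.2 * p.1 i
        fun_prop
      · show Continuous fun p : (ι → ℝ) × ℝ => p.2
        fun_prop
    have hFK : pyramid K = F '' (K ×ˢ Set.Icc (0 : ℝ) 1) := by
      ext x
      constructor
      · rintro ⟨h0, h1, y, hy, hxy⟩
        refine ⟨(y, x (Sum.inr ())), ⟨hy, h0, h1⟩, ?_⟩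
        funext a
        rcases a with i | _
        · exact (hxy i).symm
        · rfl
      · rintro ⟨⟨y, u⟩, ⟨hy, h0, h1⟩, rfl⟩
        exact ⟨h0, h1, y, hy, fun i => rfl⟩
    rw [hFK]
    exact (hK.1.prod isCompact_Icc).image hF
  refine ⟨hcomp, ?_, ?_⟩
  · rintro x ⟨hx0, hx1, y, hy, hxy⟩ x' ⟨hx0', hx1', y', hy', hxy'⟩ a b ha hb hab
    set u := x (Sum.inr ()) with hu
    set u' := x' (Sum.inr ()) with hu'
    have hval : (a • x + b • x') (Sum.inr ()) = a * u + b * u' := rfl
    have hau : 0 ≤ a * u := mul_nonneg ha hx0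
    have hbu : 0 ≤ b * u' := mul_nonneg hb hx0'
    refine ⟨by rw [hval]; positivity, by rw [hval]; nlinarith, ?_⟩
    rcases (add_nonneg hau hbu).eq_or_lt with h0 | h0
    · refine ⟨y, hy, fun i => ?_⟩
      have h1 : a * u = 0 := by linarith
      have h2 : b * u' = 0 := by linarith
      rw [hval]
      show a * x (Sum.inl i) + b * x' (Sum.inl i) = (a * u + b * u') * y i
      rw [hxy i, hxy' i, ← mul_assoc, ← mul_assoc, h1, h2]
      ring
    · refine ⟨(a * u / (a * u + b * u')) • y + (b * u' / (a * u + b * u')) • y',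
        hK.2.1 hy hy' (by positivity) (by positivity) (by field_simp), fun i => ?_⟩
      rw [hval]
      show a * x (Sum.inl i) + b * x' (Sum.inl i) = (a * u + b * u') *
        ((a * u / (a * u + b * u')) * y i + (b * u' / (a * u + b * u')) * y' i)
      rw [hxy i, hxy' i]
      field_simp
  · obtain ⟨y₀, hy₀⟩ := hK.2.2
    let O : Set (ι ⊕ Unit → ℝ) := {x | 0 < x (Sum.inr ()) ∧ x (Sum.inr ()) < 1 ∧
      (fun i => x (Sum.inl i) / x (Sum.inr ())) ∈ interior K}
    have hO : IsOpen O := by
      have hpos : IsOpen {x : ι ⊕ Unit → ℝ | 0 < x (Sum.inr ())} :=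
        isOpen_lt continuous_const (continuous_apply _)
      have hone : IsOpen {x : ι ⊕ Unit → ℝ | x (Sum.inr ()) < 1} :=
        isOpen_lt (continuous_apply _) continuous_const
      have hcont : ContinuousOn (fun x : ι ⊕ Unit → ℝ => fun i => x (Sum.inl i) / x (Sum.inr ()))
          {x : ι ⊕ Unit → ℝ | 0 < x (Sum.inr ())} := by
        refine continuousOn_pi.2 fun i => ?_
        refine ContinuousOn.div (continuous_apply _).continuousOn
          (continuous_apply _).continuousOn ?_
        intro x hx
        exact ne_of_gt hx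
      have h3 := hcont.isOpen_inter_preimage hpos isOpen_interior (t := interior K)
      have h4 : O = ({x : ι ⊕ Unit → ℝ | 0 < x (Sum.inr ())} ∩
          (fun x : ι ⊕ Unit → ℝ => fun i => x (Sum.inl i) / x (Sum.inr ())) ⁻¹' interior K) ∩
          {x : ι ⊕ Unit → ℝ | x (Sum.inr ()) < 1} := by
        ext x
        constructor
        · rintro ⟨h1, h2, h3⟩; exact ⟨⟨h1, h3⟩, h2⟩
        · rintro ⟨⟨h1, h3⟩, h2⟩; exact ⟨h1, h2, h3⟩
      rw [h4]
      exact h3.inter hone
    have hOP : O ⊆ pyramid K := by
      rintro x ⟨h1, h2, h3⟩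
      refine ⟨h1.le, h2.le, _, interior_subset h3, fun i => ?_⟩
      field_simp
    refine ⟨Sum.elim (fun i => (1 / 2) * y₀ i) (fun _ => 1 / 2), interior_maximal hOP hO ?_⟩
    refine ⟨by norm_num [Sum.elim_inr], by norm_num [Sum.elim_inr], ?_⟩
    have h5 : (fun i => (Sum.elim (fun i => (1 / 2) * y₀ i) (fun _ => (1 / 2 : ℝ)) :
        ι ⊕ Unit → ℝ) (Sum.inl i) / (Sum.elim (fun i => (1 / 2) * y₀ i) (fun _ => (1 / 2 : ℝ)) :
        ι ⊕ Unit → ℝ) (Sum.inr ())) = y₀ := by
      funext i
      simp only [Sum.elim_inl, Sum.elim_inr]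
      field_simp
    rw [h5]
    exact hy₀

end Vale.Agent.P254C
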