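import Vale.Agent.Lib.P254C.Pyr2

/-! P254: the isotropic constant of a pyramid, conclusion. -/

open MeasureTheory

namespace Vale.Agent.P254C

variable {ι : Type*} [Fintype ι] [DecidableEq ι]

theorem det_schur (S : Matrix ι ι ℝ) (B : Matrix ι Unit ℝ) (a v : ℝ) :
    (Matrix.fromBlocks (a • S + v • (B * B.transpose)) (v • B) (v • B.transpose)
      (v • (1 : Matrix Unit Unit ℝ))).det = a ^ Fintype.card ι * S.det * v := by
  have h : Matrix.fromBlocks (a • S + v • (B * B.transpose)) (v • B) (v • B.transpose)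
      (v • (1 : Matrix Unit Unit ℝ)) =
      Matrix.fromBlocks 1 B 0 1 * Matrix.fromBlocks (a • S) 0 0 (v • 1) *
        Matrix.fromBlocks 1 0 B.transpose 1 := by
    rw [Matrix.fromBlocks_multiply, Matrix.fromBlocks_multiply]
    simp
  rw [h, Matrix.det_mul, Matrix.det_mul, Matrix.det_fromBlocks_zero₂₁,
    Matrix.det_fromBlocks_zero₂₁, Matrix.det_fromBlocks_zero₁₂]
  simp [Matrix.det_smul]

omit [DecidableEq ι] in
theorem cov_pyr {K : Set (ι → ℝ)} (hK : IsBody K) (n : ℝ) (hn : n = Fintype.card ι) :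
    cov (pyramid K) = Matrix.fromBlocks
      (((n + 1) / (n + 3)) • cov K + ((n + 1) / ((n + 3) * (n + 2) ^ 2)) •
        ((Matrix.of fun (i : ι) (_ : Unit) => centroid K i) *
          (Matrix.of fun (i : ι) (_ : Unit) => centroid K i).transpose))
      (((n + 1) / ((n + 3) * (n + 2) ^ 2)) • (Matrix.of fun (i : ι) (_ : Unit) => centroid K i))
      (((n + 1) / ((n + 3) * (n + 2) ^ 2)) •
        (Matrix.of fun (i : ι) (_ : Unit) => centroid K i).transpose)
      (((n + 1) / ((n + 3) * (n + 2) ^ 2)) • (1 : Matrix Unit Unit ℝ)) := by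
  have hn0 : 0 ≤ n := by rw [hn]; positivity
  have hV := body_pos hK
  have h1 : n + 1 ≠ 0 := by positivity
  have h2 : n + 2 ≠ 0 := by positivity
  have h3 : n + 3 ≠ 0 := by positivity
  have hP := body_pyr hK
  have hvol : vol (pyramid K) = vol K / (n + 1) := by rw [vol_pyr hK.1, hn]
  have hi : ∀ i, ∫ x in K, x i = centroid K i * vol K := by
    intro i
    rw [centroid]
    field_simp
  have hcu : centroid (pyramid K) (Sum.inr ()) = (n + 1) / (n + 2) := by
    rw [centroid, mom_u hK.1, hvol, ← hn]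
    field_simp
  have hci : ∀ i, centroid (pyramid K) (Sum.inl i) = (n + 1) / (n + 2) * centroid K i := by
    intro i
    rw [centroid, mom_x hK.1, hvol, hi, ← hn]
    field_simp
  have hij : ∀ i j, ∫ x in K, x i * x j =
      (cov K i j + centroid K i * centroid K j) * vol K := by
    intro i j
    rw [cov_eq hK]
    field_simp
    ring
  ext a b
  rcases a with i | ⟨⟩ <;> rcases b with j | ⟨⟩
  · rw [Matrix.fromBlocks_apply₁₁, cov_eq hP, mom_xx hK.1, hij, hvol, hci, hci, ← hn]
    simp only [Matrix.add_apply, Matrix.smul_apply, Matrix.mul_apply, Matrix.of_apply,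
      Matrix.transpose_apply, smul_eq_mul, Finset.univ_unique, Finset.sum_singleton]
    field_simp
    ring
  · rw [Matrix.fromBlocks_apply₁₂, cov_eq hP, mom_xu hK.1, hi, hvol, hci, hcu, ← hn]
    simp only [Matrix.smul_apply, Matrix.of_apply, smul_eq_mul]
    field_simp
    ring
  · rw [Matrix.fromBlocks_apply₂₁, cov_eq hP]
    have h4 : ∀ x : ι ⊕ Unit → ℝ, x (Sum.inr ()) * x (Sum.inl j) =
        x (Sum.inl j) * x (Sum.inr ()) := fun x => mul_comm _ _
    simp_rw [h4]
    rw [mom_xu hK.1, hi, hvol, hci, hcu, ← hn]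
    simp only [Matrix.smul_apply, Matrix.of_apply, Matrix.transpose_apply, smul_eq_mul]
    field_simp
    ring
  · rw [Matrix.fromBlocks_apply₂₂, cov_eq hP]
    have h4 : ∀ x : ι ⊕ Unit → ℝ, x (Sum.inr ()) * x (Sum.inr ()) = x (Sum.inr ()) ^ 2 :=
      fun x => (sq _).symm
    simp_rw [h4]
    rw [mom_uu hK.1, hvol, hcu, ← hn]
    simp only [Matrix.smul_apply, Matrix.one_apply_eq, smul_eq_mul]
    field_simp
    ring

theorem det_pyr {K : Set (ι → ℝ)} (hK : IsBody K) :
    (cov (pyramid K)).det / vol (pyramid K) ^ 2 =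
      rho (Fintype.card ι) * ((cov K).det / vol K ^ 2) := by
  have hV := (body_pos hK).ne'
  rw [cov_pyr hK _ rfl, det_schur, vol_pyr hK.1]
  unfold rho
  set n : ℝ := (Fintype.card ι : ℝ) with hn
  have h1 : n + 1 ≠ 0 := by positivity
  have h2 : n + 2 ≠ 0 := by positivity
  have h3 : n + 3 ≠ 0 := by positivity
  rw [div_pow]
  field_simp
  ring

variable [Nonempty ι]

theorem isoConst_pyr_pow {K : Set (ι → ℝ)} (hK : IsBody K) :
    isoConst (pyramid K) ^ (2 * (Fintype.card ι + 1)) =
      rho (Fintype.card ι) * isoConst K ^ (2 * Fintype.card ι) := by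
  have h : Fintype.card ι + 1 = Fintype.card (ι ⊕ Unit) := by simp
  rw [h, isoConst_pow (body_pyr hK), isoConst_pow hK, det_pyr hK]

theorem isoConst_pyr_le {K : Set (ι → ℝ)} (hK : IsBody K) :
    isoConst (pyramid K) ≤ simplexConst (Fintype.card ι + 1) ↔
      isoConst K ≤ simplexConst (Fintype.card ι) := by
  have ha : 1 ≤ Fintype.card ι := Fintype.card_pos
  have hr := rho_pos (Fintype.card ι)
  rw [← pow_le_pow_iff_left₀ (isoConst_nonneg (body_pyr hK)) (simplexConst_pos _).le
    (show 2 * (Fintype.card ι + 1) ≠ 0 by omega), isoConst_pyr_pow hK,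
    simplexConst_pow (by omega), simplexQ_succ, mul_le_mul_iff_right₀ hr,
    ← simplexConst_pow ha, pow_le_pow_iff_left₀ (isoConst_nonneg hK) (simplexConst_pos _).le
    (show 2 * Fintype.card ι ≠ 0 by omega)]

theorem isoConst_pyr_eq {K : Set (ι → ℝ)} (hK : IsBody K) :
    isoConst (pyramid K) = simplexConst (Fintype.card ι + 1) ↔
      isoConst K = simplexConst (Fintype.card ι) := by
  have ha : 1 ≤ Fintype.card ι := Fintype.card_pos
  have hr := rho_pos (Fintype.card ι)
  rw [← pow_left_inj₀ (isoConst_nonneg (body_pyr hK)) (simplexConst_pos _).le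
    (show 2 * (Fintype.card ι + 1) ≠ 0 by omega), isoConst_pyr_pow hK,
    simplexConst_pow (by omega), simplexQ_succ, mul_right_inj' hr.ne',
    ← simplexConst_pow ha, pow_left_inj₀ (isoConst_nonneg hK) (simplexConst_pos _).le
    (show 2 * Fintype.card ι ≠ 0 by omega)]

end Vale.Agent.P254C
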