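import Vale.Agent.Lib.P254C.Pyr3
import Vale.Agent.Lib.P254.Simplex
import Vale.Agent.Lib.P254.Moments

/-! P254: the closed form `simplexConst n` is the isotropic constant of the standard simplex. -/

open MeasureTheory

namespace Vale.Agent.P254C

/-- the standard `n`-simplex: convex hull of `0, e_1, …, e_n` -/
def stdSimplexBody (n : ℕ) : Set (Fin n → ℝ) := {x | (∀ i, 0 ≤ x i) ∧ ∑ i, x i ≤ 1}

theorem isoConst_simplex (n : ℕ) : isoConst (stdSimplexBody n) = simplexConst n := by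
  have hS : stdSimplexBody n = Vale.Agent.Lib.P254.S n 1 := rfl
  have hc : cov (stdSimplexBody n) = Vale.Agent.Lib.P254.cov (Vale.Agent.Lib.P254.S n 1) := by
    ext i j
    rw [hS]
    simp only [cov, Vale.Agent.Lib.P254.cov, Matrix.of_apply, centroid,
      Vale.Agent.Lib.P254.bary, vol, Vale.Agent.Lib.P254.vol, div_eq_inv_mul]
  have hv : vol (stdSimplexBody n) = Vale.Agent.Lib.P254.vol (Vale.Agent.Lib.P254.S n 1) := rfl
  have h := Vale.Agent.Lib.P254.simplex_ratio n (Vale.Agent.Lib.P254.vol_S n)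
    (Vale.Agent.Lib.P254.mom1 n) (Vale.Agent.Lib.P254.mom2 n)
  have h' : (Vale.Agent.Lib.P254.cov (Vale.Agent.Lib.P254.S n 1)).det /
      Vale.Agent.Lib.P254.vol (Vale.Agent.Lib.P254.S n 1) ^ 2 =
      ((n.factorial : ℝ)) ^ 2 / (((n : ℝ) + 1) ^ (n + 1) * ((n : ℝ) + 2) ^ n) := h
  rw [isoConst, simplexConst, Fintype.card_fin, hc, hv, h']

theorem body_simplex (n : ℕ) : IsBody (stdSimplexBody n) := Vale.Agent.Lib.P254.isBody_S n

end Vale.Agent.P254C
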